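import Vale.Agent.P252.BernMain

/-! In every dimension `n ≥ 10` the assertion of the affine Bernstein problem is false, over open
convex domains with Euclidean complete graph, for entire graphs, and also when Euclidean and affine
completeness are assumed together. -/

open scoped ContDiff
open Vale.Agent.P252

theorem Vale.Agent.Results.P252.CompleteCounterexample.result (n : ℕ) (hn : 10 ≤ n) :
    ¬ AffineBernstein n ∧ ¬ AffineBernsteinBoth n ∧ ¬ EntireBernstein n ∧
    ∃ u : EuclideanSpace ℝ (Fin n) → ℝ,
      ContDiff ℝ ∞ u ∧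
      (∀ x, (hess u x).PosDef) ∧
      AffineMaximalOn Set.univ u ∧
      RiemComplete (euclMetric u) Set.univ ∧
      RiemComplete (affMetric u) Set.univ ∧
      ¬ ∃ (A : Matrix (Fin n) (Fin n) ℝ) (b : Fin n → ℝ) (c : ℝ),
        ∀ x, u x = (1 / 2) * ∑ i, ∑ j, A i j * x i * x j + ∑ i, b i * x i + c :=
  ⟨not_bern n hn, not_both n hn, not_entire n hn, mainComplete n hn⟩
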