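import Vale.Agent.P252.Final

/-! In every dimension `n ≥ 10` there is an entire smooth locally uniformly convex solution of the
affine maximal equation which is not a quadratic polynomial. -/

open scoped ContDiff

theorem Vale.Agent.Results.P252.EntireCounterexample.result (n : ℕ) (hn : 10 ≤ n) :
    ∃ u : EuclideanSpace ℝ (Fin n) → ℝ,
      ContDiff ℝ ∞ u ∧
      (∀ x, (Vale.Agent.P252.hess u x).PosDef) ∧
      Vale.Agent.P252.AffineMaximal u ∧
      ¬ ∃ (A : Matrix (Fin n) (Fin n) ℝ) (b : Fin n → ℝ) (c : ℝ),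
        ∀ x, u x = (1 / 2) * ∑ i, ∑ j, A i j * x i * x j + ∑ i, b i * x i + c :=
  Vale.Agent.P252.main n hn
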